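import Vale.Agent.P207.N4.Dim
import Vale.Agent.P207.N3.H862.JC
import Vale.Agent.P207.N4.H250.PF

/-!
# P207, line N3: `Bus`, the Busemann functions on the discs

Geometry behind the structure (308 #11414 A). The disc of the frame `x = (p; v, E₁, E₂)` is
`q ↦ Exp_p (r₀ (q₁ E₁ + q₂ E₂))`, `q ∈ ball 0 3`; `b ξ x = b_ξ (p)` is the Busemann function of `ξ`
(increasing along the geodesics coming from `ξ`, gradient = the direction coming from `ξ`),
`be x ξ q = b_ξ (point q of the disc) - b_ξ (p)`, `en x ξ q` is the end point in the future of the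
geodesic which comes from `ξ` and passes through the point `q` of the disc of `x`, and `nu x ξ q` is
the component of `∇b_ξ` normal to the disc (positive on the side of `v`).

For frames `x, y` let `sg x y q = (e y)⁻¹ (en x (em y) q)`: the leaf of `em y`, seen on the disc of
`x` and in the chart `e y` (`sg x y = τ x y` if `em x = em y`).
-/

open Set Filter Topology Metric MeasureTheory
open scoped ContDiff

noncomputable section

namespace Vale.Agent.P207.N4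

open Vale.Agent.P207.N3

variable [Dim]

variable {Γ X B : Type} [Group Γ] [MetricSpace X] [ProperSpace X] [MulAction Γ X]
  [IsIsometricSMul Γ X] [TopologicalSpace B] [CompactSpace B] [T2Space B] [MulAction Γ B]
  [ContinuousConstSMul Γ B]

/-- the map `(e y)⁻¹ ∘ en x (em y)` from the disc of `x` to the chart `e y` -/
def sgm (L : Leaf Γ X B) (en : X → B → E2 → B) (x y : X) (q : E2) : E2 :=
  Function.invFunOn (L.e y) (closedBall (0 : E2) 3) (en x (L.em y) q)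

/-- the domain of `sgm`, in `(X × X) × E2` -/
def sgD (L : Leaf Γ X B) (en : X → B → E2 → B) : Set ((X × X) × E2) :=
  {p | p.2 ∈ ball (0 : E2) 3 ∧ en p.1.1 (L.em p.1.2) p.2 ∈ L.e p.1.2 '' ball (0 : E2) 3}

/-- The Busemann functions on the discs. -/
structure Bus (L : Leaf Γ X B) (T : Tens L) where
  /-- the Busemann function of `ξ` at the foot point of `x` -/
  b : B → X → ℝ
  b_cont : Continuous fun p : B × X => b p.1 p.2
  b_em : ∀ x, b (L.em x) x = L.lv x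
  b_ep : ∀ x, b (L.ep x) x = L.lp x
  b_flip : ∀ ξ x, b ξ (L.flip x) = b ξ x
  b_rot : ∀ ξ a x, b ξ (L.rot a x) = b ξ x
  b_smul : ∀ (g : Γ) ξ x y, b (g • ξ) (g • x) - b (g • ξ) (g • y) = b ξ x - b ξ y
  /-- the Busemann function of `ξ` on the disc of `x` -/
  be : X → B → E2 → ℝ
  be_jc : JC (fun (p : X × B) q => be p.1 p.2 q) (univ ×ˢ ball 0 3)
  be_zero : ∀ x ξ, be x ξ 0 = 0
  be_smul : ∀ (g : Γ) x ξ, ∀ q ∈ ball (0 : E2) 3, be (g • x) (g • ξ) q = be x ξ q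
  be_rot : ∀ a x ξ, ∀ q ∈ ball (0 : E2) 3, be (L.rot a x) ξ q = be x ξ (a q)
  be_flip : ∀ x ξ, ∀ q ∈ ball (0 : E2) 3, be (L.flip x) ξ q = be x ξ q
  /-- the disc is orthogonal to the geodesic of the frame -/
  be_crit : ∀ x, gradient (be x (L.em x)) 0 = 0
  /-- the end of the geodesic from `ξ` through the point `q` of the disc of `x` -/
  en : X → B → E2 → B
  en_cont : ContinuousOn (fun p : (X × B) × E2 => en p.1.1 p.1.2 p.2) (univ ×ˢ ball 0 3)
  en_em : ∀ x, ∀ q ∈ ball (0 : E2) 3, en x (L.em x) q = L.e x q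
  en_smul : ∀ (g : Γ) x ξ, ∀ q ∈ ball (0 : E2) 3, en (g • x) (g • ξ) q = g • en x ξ q
  en_rot : ∀ a x ξ, ∀ q ∈ ball (0 : E2) 3, en (L.rot a x) ξ q = en x ξ (a q)
  en_flip : ∀ x ξ, ∀ q ∈ ball (0 : E2) 3, en (L.flip x) ξ q = en x ξ q
  en_en : ∀ x ξ, ∀ q ∈ ball (0 : E2) 3, en x (en x ξ q) q = ξ
  /-- the frame at the point `q` of the disc of `x` which comes from `ξ` -/
  exists_fr : ∀ x ξ, ∀ q ∈ ball (0 : E2) 3,
    ∃ z, L.em z = ξ ∧ L.ep z = en x ξ q ∧ ∀ ζ, b ζ z = b ζ x + be x ζ q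
  /-- `D (ξ, η) ≤ b_ξ + b_η`, with equality exactly on the geodesic -/
  le : ∀ x z, L.lv z + L.lp z ≤ b (L.em z) x + b (L.ep z) x
  eq : ∀ x z, ∀ q ∈ ball (0 : E2) 3,
    L.lv z + L.lp z = b (L.em z) x + b (L.ep z) x + be x (L.em z) q + be x (L.ep z) q →
    L.ep z = en x (L.em z) q
  /-- the normal component of `∇b_ξ` -/
  nu : X → B → E2 → ℝ
  nu_cont : ContinuousOn (fun p : (X × B) × E2 => nu p.1.1 p.1.2 p.2) (univ ×ˢ ball 0 3)
  nu_em : ∀ x, 0 < nu x (L.em x) 0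
  nu_en : ∀ x ξ, ∀ q ∈ ball (0 : E2) 3, nu x (en x ξ q) q = - nu x ξ q
  nu_flip : ∀ x ξ, ∀ q ∈ ball (0 : E2) 3, nu (L.flip x) ξ q = - nu x ξ q
  nu_smul : ∀ (g : Γ) x ξ, ∀ q ∈ ball (0 : E2) 3, nu (g • x) (g • ξ) q = nu x ξ q
  nu_rot : ∀ a x ξ, ∀ q ∈ ball (0 : E2) 3, nu (L.rot a x) ξ q = nu x ξ (a q)
  /-- the Hessian of `b_ξ + b_η` on the disc, at a point of a transversal geodesic -/
  pos : ∀ x ξ, ∀ q ∈ ball (0 : E2) 3, nu x ξ q ≠ 0 → ∀ v ≠ 0,
    0 < inner ℝ ((hess (be x ξ) q + hess (be x (en x ξ q)) q) v) v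
  /-- the leaf of `em y`, from the disc of `x` to the chart `e y` -/
  sg_jc : JC (fun (p : X × X) q => sgm L en p.1 p.2 q) (sgD L en)
  sg_inv : ∀ x y q, ((x, y), q) ∈ sgD L en → nu x (L.em y) q ≠ 0 →
    (fderiv ℝ (sgm L en x y) q).IsInvertible
  /-- the covectors: the direction is determined by its tangential part and the side -/
  cov_inj : ∀ x ξ ξ', ∀ q ∈ ball (0 : E2) 3, 0 ≤ nu x ξ q → 0 ≤ nu x ξ' q →
    gradient (be x ξ) q = gradient (be x ξ') q → ξ = ξ'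
  δ : ℝ
  δ_pos : 0 < δ
  cov_surj : ∀ x, ∀ q ∈ ball (0 : E2) 3, ∀ π : E2, ‖π‖ < δ →
    ∃ ξ, 0 < nu x ξ q ∧ gradient (be x ξ) q = π
  /-- the tensor `N` is the inverse Hessian of `b_ξ + b_η`, up to a constant and up to a smooth
  tensor (`266`: `N` at the level of `y`; here at the level of the point of the disc) -/
  c₀ : ℝ
  c₀_pos : 0 < c₀
  Rb : X → X → E2 → E2 →L[ℝ] E2
  Rb_jc : JC (fun (p : X × X) q => Rb p.1 p.2 q)
    {p | p ∈ sgD L en ∧ nu p.1.1 (L.em p.1.2) p.2 ≠ 0}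
  link : ∀ x y q, ((x, y), q) ∈ sgD L en → nu x (L.em y) q ≠ 0 →
    T.N y (sgm L en x y q) = c₀ • (fderiv ℝ (sgm L en x y) q ∘L
      Ring.inverse (hess (be x (L.em y)) q + hess (be x (en x (L.em y) q)) q) ∘L
      ContinuousLinearMap.adjoint (fderiv ℝ (sgm L en x y) q)) + Rb x y q

end Vale.Agent.P207.N4
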