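import Vale.Agent.P207.N4.Dim
import Vale.Agent.P207.N4.H229.Bus
import Vale.Agent.P207.N4.H266.TauB
import Vale.Agent.P207.H229.DetM

/-!
# P207, all dimensions, package PF3 over `Bus`: the densities of the leaves on the discs

`BusD S A`: `ρ x ξ q` is the logarithm of the density of the Margulis area of the leaf of `ξ` on the
disc of `x` at the point `q`; it is jointly smooth (`JC`), and at every crossing
`log det D²(b_ξ + b_η) = ρ_ξ + ρ_η` (`star`).
-/

open Set Filter Topology Metric MeasureTheory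
open scoped ContDiff

set_option linter.unusedSectionVars false

noncomputable section

namespace Vale.Agent.P207.N4

open Vale.Agent.P207.N3
open Vale.Agent.P207.H229 (det_comp' det_smul' contDiff_det' det_ne_zero_iff')

variable [Dim]

variable {Γ X B : Type} [Group Γ] [MetricSpace X] [ProperSpace X] [MulAction Γ X]
  [IsIsometricSMul Γ X] [TopologicalSpace B] [CompactSpace B] [T2Space B] [MulAction Γ B]
  [ContinuousConstSMul Γ B]

/-- change of the parameter, on an open set of parameters -/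
theorem H229.jc_pullbackOn {Z Z' : Type*} [TopologicalSpace Z] [TopologicalSpace Z'] {E F : Type}
    [NormedAddCommGroup E] [NormedSpace ℝ E] [NormedAddCommGroup F] [NormedSpace ℝ F]
    {f : Z → E → F} {S : Set (Z × E)} (h : JC f S) {c : Z' → Z} {O : Set Z'} (hO : IsOpen O)
    (hc : ContinuousOn c O) :
    JC (fun z u => f (c z) u) {p : Z' × E | p.1 ∈ O ∧ (c p.1, p.2) ∈ S} := by
  have hOO : IsOpen {p : Z' × E | p.1 ∈ O} := hO.preimage continuous_fst
  have h0 : ContinuousOn (fun p : Z' × E => ((c p.1, p.2) : Z × E)) {p : Z' × E | p.1 ∈ O} :=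
    (hc.comp continuous_fst.continuousOn fun p hp => hp).prodMk continuous_snd.continuousOn
  refine ⟨h0.isOpen_inter_preimage hOO h.isOpen, fun z u hu => ?_, fun k => ?_⟩
  · exact (h.smooth (c z) u hu.2).mono fun v hv => hv.2
  · exact (h.cont k).comp (h0.mono fun p hp => hp.1) fun p hp => hp.2

namespace H229

variable {L : Leaf Γ X B} [MeasurableSpace B] [BorelSpace B]

/-- the logarithm of the density of the area of the leaf of `em y` on the disc of `x` -/
def Rd (A : Area L) (b : B → X → ℝ) (be : X → B → E2 → ℝ) (en : X → B → E2 → B) (x y : X)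
    (q : E2) : ℝ :=
  Real.log |(fderiv ℝ (sgm L en x y) q).det| + Real.log (A.s y (sgm L en x y q))
    + A.h * (b (L.em y) x + be x (L.em y) q - L.lv y)

end H229

/-- The densities of the leaves on the discs. -/
structure BusD {L : Leaf Γ X B} [MeasurableSpace B] [BorelSpace B] {T : Tens L} (S : Bus L T)
    (A : Area L) where
  /-- the logarithm of the density of the leaf of `ξ` on the disc of `x` -/
  ρ : X → B → E2 → ℝ
  ρ_jc : JC (fun (p : X × B) q => ρ p.1 p.2 q)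
    {p | p.2 ∈ ball (0 : E2) 3 ∧ S.nu p.1.1 p.1.2 p.2 ≠ 0}
  ρ_eq : ∀ x y q, ((x, y), q) ∈ sgD L S.en → S.nu x (L.em y) q ≠ 0 →
    ρ x (L.em y) q = H229.Rd A S.b S.be S.en x y q
  ρ_smul : ∀ (g : Γ) x ξ, ∀ q ∈ ball (0 : E2) 3, S.nu x ξ q ≠ 0 →
    ρ (g • x) (g • ξ) q = ρ x ξ q
  /-- **the product of the densities at a crossing** -/
  star : ∀ x ξ, ∀ q ∈ ball (0 : E2) 3, S.nu x ξ q ≠ 0 →
    0 < (hess (S.be x ξ) q + hess (S.be x (S.en x ξ q)) q).det ∧
    Real.log (hess (S.be x ξ) q + hess (S.be x (S.en x ξ q)) q).det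
      = ρ x ξ q + ρ x (S.en x ξ q) q

namespace H229

variable {L : Leaf Γ X B} [MeasurableSpace B] [BorelSpace B] {T : Tens L} (S : Bus L T)
  (A : Area L)

/-- over every point of the disc there is a frame of the leaf whose chart sees the point -/
theorem exists_sgD (x : X) (ξ : B) {q : E2} (hq : q ∈ ball (0 : E2) 3) :
    ∃ z, L.em z = ξ ∧ L.ep z = S.en x ξ q ∧ ((x, z), q) ∈ sgD L S.en := by
  obtain ⟨z, h1, h2, -⟩ := S.exists_fr x ξ q hq
  refine ⟨z, h1, h2, hq, 0, mem_ball_self (by norm_num), ?_⟩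
  rw [L.e_zero, h2, h1]

theorem sgm_spec {x y : X} {q : E2} (h : ((x, y), q) ∈ sgD L S.en) :
    sgm L S.en x y q ∈ ball (0 : E2) 3 ∧ L.e y (sgm L S.en x y q) = S.en x (L.em y) q := by
  obtain ⟨hq, v, hv, he⟩ := h
  have h1 : sgm L S.en x y q = v := by
    unfold sgm
    simp only at he
    rw [← he]
    exact (L.e_inj y).leftInvOn_invFunOn (ball_subset_closedBall hv)
  rw [h1]
  exact ⟨hv, he⟩

theorem sgm_eq' {x y : X} {q v : E2} (hv : v ∈ closedBall (0 : E2) 3)
    (h : L.e y v = S.en x (L.em y) q) : sgm L S.en x y q = v := by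
  unfold sgm
  rw [← h]
  exact (L.e_inj y).leftInvOn_invFunOn hv

/-- the domain of the densities of pairs of frames -/
def rdD : Set ((X × X) × E2) := {p | p ∈ sgD L S.en ∧ S.nu p.1.1 (L.em p.1.2) p.2 ≠ 0}

theorem isOpen_nu : IsOpen {p : (X × B) × E2 | p.2 ∈ ball (0 : E2) 3 ∧ S.nu p.1.1 p.1.2 p.2 ≠ 0} := by
  have h1 : IsOpen ((univ : Set (X × B)) ×ˢ ball (0 : E2) 3) := isOpen_univ.prod isOpen_ball
  have h2 := S.nu_cont.isOpen_inter_preimage h1 (isOpen_ne (x := (0 : ℝ)))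
  convert h2 using 1
  ext p
  simp

theorem isOpen_rdD : IsOpen (rdD S) := by
  have h1 : Continuous fun p : (X × X) × E2 => (((p.1.1, L.em p.1.2), p.2) : (X × B) × E2) := by
    have := L.em_cont
    fun_prop
  have h2 := S.sg_jc.isOpen.inter ((isOpen_nu S).preimage h1)
  convert h2 using 1
  ext p
  constructor
  · rintro ⟨a, b⟩
    exact ⟨a, a.1, b⟩
  · rintro ⟨a, b⟩
    exact ⟨a, b.2⟩

theorem Rd_jc : JC (fun (p : X × X) q => Rd A S.b S.be S.en p.1 p.2 q) (rdD S) := by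
  have hO := isOpen_rdD S
  have hsub : rdD S ⊆ sgD L S.en := fun p hp => hp.1
  have h0 := S.sg_jc.mono hO hsub
  have h1 : JC (fun (p : X × X) q => (fderiv ℝ (sgm L S.en p.1 p.2) q).det) (rdD S) :=
    h0.fderiv.comp_contDiff contDiff_det'
  have h2 : JC (fun (p : X × X) q => Real.log |(fderiv ℝ (sgm L S.en p.1 p.2) q).det|)
      (rdD S) := by
    simp only [Real.log_abs]
    exact h1.log fun p hp => (det_ne_zero_iff' _).2 (S.sg_inv _ _ _ hp.1 hp.2)
  have s_jc : JC (fun (x : X) u => A.s x u) (univ ×ˢ ball 0 3) :=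
    ⟨isOpen_univ.prod isOpen_ball, fun x => (A.s_smooth x).mono fun u hu => hu.2,
      fun k => A.s_cont k⟩
  have h3 : JC (fun (p : X × X) u => A.s p.2 u) {p : (X × X) × E2 | (p.1.2, p.2) ∈ univ ×ˢ ball 0 3} :=
    s_jc.pullback continuous_snd
  have h4 : JC (fun (p : X × X) q => A.s p.2 (sgm L S.en p.1 p.2 q)) (rdD S) :=
    h3.comp' h0 fun p hp => ⟨mem_univ _, (sgm_spec S hp.1).1⟩
  have h5 : JC (fun (p : X × X) q => Real.log (A.s p.2 (sgm L S.en p.1 p.2 q))) (rdD S) :=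
    h4.log fun p hp => (A.s_pos _ _ (sgm_spec S hp.1).1).ne'
  have hc : Continuous fun p : X × X => ((p.1, L.em p.2) : X × B) := by
    have := L.em_cont
    fun_prop
  have h6 : JC (fun (p : X × X) q => S.be p.1 (L.em p.2) q) (rdD S) :=
    (S.be_jc.pullback hc).mono hO fun p hp => ⟨mem_univ _, hp.1.1⟩
  have h7 : Continuous fun p : X × X => S.b (L.em p.2) p.1 := by
    have h8 := S.b_cont
    have := L.em_cont
    exact h8.comp (by fun_prop : Continuous fun p : X × X => ((L.em p.2, p.1) : B × X))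
  have h9 : JC (fun (p : X × X) q => A.h * (S.b (L.em p.2) p.1 + S.be p.1 (L.em p.2) q
      - L.lv p.2)) (rdD S) := by
    refine JC.const_smul A.h (((JC.param' hO h7).add h6).sub (JC.param' hO ?_))
    exact L.lv_cont.comp continuous_snd
  exact (h2.add h5).add h9

theorem Rd_smul (g : Γ) {x y : X} {q : E2} (h : ((x, y), q) ∈ rdD S) :
    Rd A S.b S.be S.en (g • x) (g • y) q = Rd A S.b S.be S.en x y q := by
  have hs := isOpen_slice S.sg_jc.isOpen (x, y)
  have hsg : ∀ t, ((x, y), t) ∈ sgD L S.en →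
      sgm L S.en (g • x) (g • y) t = sgm L S.en x y t := by
    intro t ht
    obtain ⟨h1, h2⟩ := sgm_spec S ht
    refine sgm_eq' S (ball_subset_closedBall h1) ?_
    rw [L.em_smul, S.en_smul g x _ t ht.1, L.e_smul g y _ (ball_subset_closedBall h1), h2]
  have hev : sgm L S.en (g • x) (g • y) =ᶠ[𝓝 q] sgm L S.en x y := by
    filter_upwards [hs.mem_nhds h.1] with t ht using hsg t ht
  have h3 := S.b_smul g (L.em y) x y
  rw [← L.em_smul, S.b_em, S.b_em] at h3
  rw [Rd, Rd, hev.fderiv_eq, hsg q h.1, A.s_smul g y _ (sgm_spec S h.1).1, L.em_smul,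
    S.be_smul g x _ q h.1.1]
  rw [L.em_smul] at h3
  have h4 : S.b (g • L.em y) (g • x) + S.be x (L.em y) q - L.lv (g • y)
      = S.b (L.em y) x + S.be x (L.em y) q - L.lv y := by linarith
  rw [h4]

/-- the density, from any two frames of the leaf -/
theorem Rd_indep {x y y' : X} {q : E2} (hy : ((x, y), q) ∈ rdD S) (hy' : ((x, y'), q) ∈ rdD S)
    (he : L.em y = L.em y') :
    Rd A S.b S.be S.en x y q = Rd A S.b S.be S.en x y' q := by
  obtain ⟨a1, a2⟩ := sgm_spec S hy.1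
  obtain ⟨b1, b2⟩ := sgm_spec S hy'.1
  have hs := isOpen_slice S.sg_jc.isOpen (x, y)
  have hs' := isOpen_slice S.sg_jc.isOpen (x, y')
  have hev : sgm L S.en x y' =ᶠ[𝓝 q] fun t => L.τ y y' (sgm L S.en x y t) := by
    filter_upwards [hs.mem_nhds hy.1, hs'.mem_nhds hy'.1] with t ht ht'
    obtain ⟨c1, c2⟩ := sgm_spec S ht
    obtain ⟨d1, d2⟩ := sgm_spec S ht'
    have := Ten.tau_eq (L := L) (x := y) (y := y') (u := sgm L S.en x y t)
      (ball_subset_closedBall d1) (by rw [d2, c2, he])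
    exact this.symm
  have hdm : sgm L S.en x y q ∈ L.dm y y' :=
    ⟨a1, sgm L S.en x y' q, b1, by rw [b2, a2, he]⟩
  have hτ : L.τ y y' (sgm L S.en x y q) = sgm L S.en x y' q :=
    Ten.tau_eq (ball_subset_closedBall b1) (by rw [b2, a2, he])
  have hd1 : DifferentiableAt ℝ (sgm L S.en x y) q := S.sg_jc.differentiableAt hy.1
  have hd : fderiv ℝ (sgm L S.en x y') q
      = (fderiv ℝ (L.τ y y') (sgm L S.en x y q)) ∘L (fderiv ℝ (sgm L S.en x y) q) := by
    rw [hev.fderiv_eq]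
    exact fderiv_comp q (Ten.tau_diff he hdm) hd1
  have hdet1 : (fderiv ℝ (sgm L S.en x y) q).det ≠ 0 :=
    (det_ne_zero_iff' _).2 (S.sg_inv _ _ _ hy.1 hy.2)
  have hdet2 : (fderiv ℝ (sgm L S.en x y') q).det ≠ 0 :=
    (det_ne_zero_iff' _).2 (S.sg_inv _ _ _ hy'.1 hy'.2)
  rw [hd, det_comp'] at hdet2
  have hdet3 := left_ne_zero_of_mul hdet2
  have h4 := A.s_trans y y' he _ hdm
  rw [hτ] at h4
  have h5 : Real.log (A.s y (sgm L S.en x y q)) = A.h * (L.lv y - L.lv y')
      + Real.log |(fderiv ℝ (L.τ y y') (sgm L S.en x y q)).det|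
      + Real.log (A.s y' (sgm L S.en x y' q)) := by
    have hs := A.s_pos y' _ b1
    rw [h4, Real.log_mul (by positivity) hs.ne', Real.log_mul (by positivity) (by positivity),
      Real.log_exp]
  rw [Rd, Rd, hd, det_comp', abs_mul, Real.log_mul (abs_ne_zero.2 hdet3) (abs_ne_zero.2 hdet1),
    h5, ← he]
  ring

/-- the density, in any frame of the leaf which sees the point -/
def rh (x : X) (ξ : B) (q : E2) : ℝ := by
  classical
  exact if h : ∃ z, L.em z = ξ ∧ ((x, z), q) ∈ rdD S then Rd A S.b S.be S.en x h.choose q else 0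

theorem rh_eq {x y : X} {q : E2} (hy : ((x, y), q) ∈ rdD S) :
    rh S A x (L.em y) q = Rd A S.b S.be S.en x y q := by
  have h : ∃ z, L.em z = L.em y ∧ ((x, z), q) ∈ rdD S := ⟨y, rfl, hy⟩
  rw [rh, dif_pos h]
  exact Rd_indep S A h.choose_spec.2 hy h.choose_spec.1

theorem rh_jc : JC (fun (p : X × B) q => rh S A p.1 p.2 q)
    {p | p.2 ∈ ball (0 : E2) 3 ∧ S.nu p.1.1 p.1.2 p.2 ≠ 0} := by
  refine JC.of_local (isOpen_nu S) ?_
  rintro ⟨⟨x₀, ξ₀⟩, q₀⟩ ⟨hq₀, hn₀⟩
  obtain ⟨y₀, h1, -, h3⟩ := exists_sgD S x₀ ξ₀ hq₀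
  have hO : IsOpen {p : X × B | p.2 ≠ L.ep y₀} := isOpen_ne_fun continuous_snd continuous_const
  have hc : ContinuousOn (fun p : X × B => ((p.1, L.hol p.2 y₀) : X × X))
      {p : X × B | p.2 ≠ L.ep y₀} := by
    refine continuousOn_fst.prodMk ?_
    exact L.hol_cont.comp (f := fun p : X × B => ((p.2, y₀) : B × X)) (by fun_prop)
      fun p hp => hp
  have h4 := jc_pullbackOn (Rd_jc S A) hO hc
  refine ⟨_, ?_, h4.congr fun p hp => ?_⟩
  · have hne : ξ₀ ≠ L.ep y₀ := by rw [← h1]; exact L.em_ne_ep y₀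
    refine ⟨hne, ?_, ?_⟩
    · change ((x₀, L.hol ξ₀ y₀), q₀) ∈ sgD L S.en
      rw [← h1, L.hol_self]
      exact h3
    · change S.nu x₀ (L.em (L.hol ξ₀ y₀)) q₀ ≠ 0
      rw [L.hol_em _ _ hne]
      exact hn₀
  · have h5 := rh_eq S A hp.2
    simp only [L.hol_em _ _ hp.1] at h5
    exact h5

theorem rh_smul (g : Γ) (x : X) (ξ : B) {q : E2} (hq : q ∈ ball (0 : E2) 3)
    (hn : S.nu x ξ q ≠ 0) : rh S A (g • x) (g • ξ) q = rh S A x ξ q := by
  obtain ⟨y, h1, -, h3⟩ := exists_sgD S x ξ hq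
  have hy : ((x, y), q) ∈ rdD S := ⟨h3, by rw [h1]; exact hn⟩
  have hgy : ((g • x, g • y), q) ∈ rdD S := by
    obtain ⟨c1, c2⟩ := sgm_spec S h3
    refine ⟨⟨hq, sgm L S.en x y q, c1, ?_⟩, ?_⟩
    · change L.e (g • y) _ = S.en (g • x) (L.em (g • y)) q
      rw [L.em_smul, S.en_smul g x _ q hq, L.e_smul g y _ (ball_subset_closedBall c1), c2]
    · change S.nu (g • x) (L.em (g • y)) q ≠ 0
      rw [L.em_smul, S.nu_smul g x _ q hq, h1]
      exact hn
  have h4 := rh_eq S A hgy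
  rw [L.em_smul, h1] at h4
  rw [h4, Rd_smul S A g hy, ← rh_eq S A hy, h1]

end H229

open Vale.Agent.P207.N4.H229 in
/-- the densities exist as soon as the product formula holds at the crossings -/
def BusD.mk' {L : Leaf Γ X B} [MeasurableSpace B] [BorelSpace B] {T : Tens L} (S : Bus L T)
    (A : Area L) (hstar : ∀ x y y' q, ((x, y), q) ∈ rdD S → ((x, y'), q) ∈ rdD S →
      L.em y' = S.en x (L.em y) q →
      0 < (hess (S.be x (L.em y)) q + hess (S.be x (S.en x (L.em y) q)) q).det ∧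
      Real.log (hess (S.be x (L.em y)) q + hess (S.be x (S.en x (L.em y) q)) q).det
        = Rd A S.b S.be S.en x y q + Rd A S.b S.be S.en x y' q) : BusD S A where
  ρ := rh S A
  ρ_jc := rh_jc S A
  ρ_eq x y q h1 h2 := rh_eq S A ⟨h1, h2⟩
  ρ_smul g x ξ q hq hn := rh_smul S A g x ξ hq hn
  star x ξ q hq hn := by
    obtain ⟨y, h1, -, h3⟩ := exists_sgD S x ξ hq
    obtain ⟨y', h1', -, h3'⟩ := exists_sgD S x (S.en x ξ q) hq
    have hy : ((x, y), q) ∈ rdD S := ⟨h3, by rw [h1]; exact hn⟩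
    have hy' : ((x, y'), q) ∈ rdD S := ⟨h3', by
      rw [h1', S.nu_en x ξ q hq]
      exact neg_ne_zero.2 hn⟩
    have h4 := hstar x y y' q hy hy' (by rw [h1', h1])
    rw [← rh_eq S A hy, ← rh_eq S A hy', h1, h1'] at h4
    exact h4

end Vale.Agent.P207.N4
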