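import Vale.Agent.P207.N4.Dim
import Vale.Agent.P207.N4.H229.BusDI
import Vale.Agent.P207.N4.H229.PdGlue
import Vale.Agent.P207.N4.H734.AffU
import Vale.Agent.P207.N4.H547.LqN0
import Vale.Agent.P207.N4.H469.T2Main
import Vale.Agent.P207.H281.Prod

/-!
# P207, line N4, rows PD-GLUE + PROD: the data of the product formula, and the 2-jets of the leaves

Over `P : Pic L V` with the densities (`BusD`, for `G : PicG L V`: `G.exists_busD`): if no `S`-space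
contains a symmetric form, the Hessians of the generating functions have uniform 2-jets in the label.
-/

set_option linter.unusedSectionVars false
set_option maxSynthPendingDepth 3

open Set Filter Topology Metric MeasureTheory
open scoped ContDiff

noncomputable section

namespace Vale.Agent.P207.N4

open Vale.Agent.P207.N3

variable [Dim]

variable {Γ X B : Type} [Group Γ] [MetricSpace X] [ProperSpace X] [MulAction Γ X]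
  [IsIsometricSMul Γ X] [TopologicalSpace B] [CompactSpace B] [T2Space B] [MulAction Γ B]
  [ContinuousConstSMul Γ B] {L : Leaf Γ X B} [MeasurableSpace B] [BorelSpace B] {V : Type}
  [NormedAddCommGroup V] [NormedSpace ℝ V] [FiniteDimensional ℝ V] (P : Pic L V)

/-- the exponent `1 / 3` is admissible -/
theorem Pic.third : (1 + 1 / 3 : ℝ) * P.Ra.b < 2 * P.Ra.a := by
  have := P.Ra.pinch
  linarith

/-- **row PD-GLUE, all inputs except T2** -/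
theorem Pic.pd_out (hD : Nonempty (BusD P.Bu P.S.A)) {ε₀ : ℝ} (hε₀ : 0 < ε₀) (hT : P.T2d ε₀)
    (hS : ∀ x, ∀ s ∈ P.Sm x, (∀ v w, inner ℝ (s v) w = inner ℝ v (s w)) → s = 0) : ∃ (K r0 : ℝ) (Ck : ℕ → ℝ) (CQ : ℝ → ℝ → (ℕ → ℝ) → ℝ → ℝ),
      1 ≤ K ∧ 0 < r0 ∧ (∀ k, 0 ≤ Ck k) ∧
      (∀ x, ∃ d : H281.PD E2, d.Ok K (1 / 3) r0 Ck CQ ∧
        (∀ y, d.g y = P.gr x (H229.lb P x y)) ∧ (∀ p, d.N p = - P.N0 x p) ∧
        (∀ y p, ‖y‖ ≤ r0 → ‖p‖ < 7 / 8 →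
          P.Th x (H229.lb P x y) (d.hol y p) = P.Af.pt x p)) := by
  obtain ⟨D⟩ := hD
  obtain ⟨CQ, hQ⟩ := P.lq_N0 hS
  obtain ⟨K, r0, Ck, h1, h2, h3, h4⟩ := H229.pd_glue D hε₀ hT (by norm_num) P.third
    (fun x => ⟨_, fun q hq => P.Af.s_const P.S.A
      (H229.ball1_dT P x (ball_subset_closedBall hq))⟩) (fun x => (hQ x).2)
  exact ⟨K, r0, Ck, CQ, h1, h2, h3, h4⟩

/-- **the 2-jets of the Hessians of the generating functions in the label** -/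
theorem Pic.two_jets (hD : Nonempty (BusD P.Bu P.S.A)) {ε₀ : ℝ} (hε₀ : 0 < ε₀) (hT : P.T2d ε₀)
    (hS : ∀ x, ∀ s ∈ P.Sm x, (∀ v w, inner ℝ (s v) w = inner ℝ v (s w)) → s = 0) {ε : ℝ} (hε : 0 < ε) (hε1 : ε ≤ 3 / 4) :
    ∃ C r1 K : ℝ, 0 ≤ C ∧ 0 < r1 ∧ r1 ≤ 1 ∧ 1 ≤ K ∧ ∀ x,
      (∃ Q : E2 →L[ℝ] E2 →L[ℝ] (E2 →L[ℝ] E2), (∀ y z, Q y z = Q z y) ∧ ‖Q‖ ≤ C ∧
        ∀ y q, ‖y‖ ≤ r1 → ‖q‖ ≤ 3 * K * ‖y‖ →
          ‖hess (P.dl x (H229.lb P x y)) q - Q y y‖ ≤ C * ‖y‖ ^ (3 - ε)) ∧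
      (∀ y q, ‖y‖ ≤ r1 → ‖q‖ < 20 / 32 →
        ‖hess (P.dl x (H229.lb P x y)) q‖ ≤ C * ‖y‖ ^ (2 - ε) ∧
        ‖P.gr x (H229.lb P x y) q - y‖ ≤ C * ‖y‖ ^ (2 - ε)) := by
  obtain ⟨K, r0, Ck, CQ, hK, hr0, hCk, hd⟩ := P.pd_out hD hε₀ hT hS
  obtain ⟨C, r1, hC, hr1, -, hr11, h⟩ := H281.two_jet E2 CQ hK (by norm_num : (0 : ℝ) < 1 / 3)
    (by norm_num) hr0 hCk hε hε1
  refine ⟨C, r1, K, hC, hr1, hr11, hK, fun x => ?_⟩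
  obtain ⟨d, hok, hg, -, -⟩ := hd x
  obtain ⟨⟨Q, h1, h2, h3⟩, h4⟩ := h d hok
  have hH : ∀ y q, d.H y q = hess (P.dl x (H229.lb P x y)) q := by
    intro y q
    rw [H281.PD.H, hg]
    rfl
  refine ⟨⟨Q, h1, h2, fun y q hy hq => ?_⟩, fun y q hy hq => ?_⟩
  · rw [← hH]
    exact h3 y q hy hq
  · obtain ⟨h5, h6⟩ := h4 y q hy hq
    rw [hH] at h5
    rw [hg] at h6
    exact ⟨h5, h6⟩

/-- **PD-GLUE for the geometry** -/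
theorem PicG.pd_out (G : PicG L V) (hS : ∀ x, ∀ s ∈ G.toPic.Sm x, (∀ v w, inner ℝ (s v) w = inner ℝ v (s w)) → s = 0) :
    ∃ (K r0 : ℝ) (Ck : ℕ → ℝ) (CQ : ℝ → ℝ → (ℕ → ℝ) → ℝ → ℝ),
      1 ≤ K ∧ 0 < r0 ∧ (∀ k, 0 ≤ Ck k) ∧
      (∀ x, ∃ d : H281.PD E2, d.Ok K (1 / 3) r0 Ck CQ ∧
        (∀ y, d.g y = G.toPic.gr x (H229.lb G.toPic x y)) ∧ (∀ p, d.N p = - G.toPic.N0 x p) ∧
        (∀ y p, ‖y‖ ≤ r0 → ‖p‖ < 7 / 8 →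
          G.toPic.Th x (H229.lb G.toPic x y) (d.hol y p) = G.toPic.Af.pt x p)) :=
  G.toPic.pd_out G.exists_busD one_pos (H469.t2dG G 1) hS

/-- **the 2-jets, for the geometry** -/
theorem PicG.two_jets (G : PicG L V) (hS : ∀ x, ∀ s ∈ G.toPic.Sm x, (∀ v w, inner ℝ (s v) w = inner ℝ v (s w)) → s = 0) {ε : ℝ} (hε : 0 < ε)
    (hε1 : ε ≤ 3 / 4) :
    ∃ C r1 K : ℝ, 0 ≤ C ∧ 0 < r1 ∧ r1 ≤ 1 ∧ 1 ≤ K ∧ ∀ x,
      (∃ Q : E2 →L[ℝ] E2 →L[ℝ] (E2 →L[ℝ] E2), (∀ y z, Q y z = Q z y) ∧ ‖Q‖ ≤ C ∧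
        ∀ y q, ‖y‖ ≤ r1 → ‖q‖ ≤ 3 * K * ‖y‖ →
          ‖hess (G.toPic.dl x (H229.lb G.toPic x y)) q - Q y y‖ ≤ C * ‖y‖ ^ (3 - ε)) ∧
      (∀ y q, ‖y‖ ≤ r1 → ‖q‖ < 20 / 32 →
        ‖hess (G.toPic.dl x (H229.lb G.toPic x y)) q‖ ≤ C * ‖y‖ ^ (2 - ε) ∧
        ‖G.toPic.gr x (H229.lb G.toPic x y) q - y‖ ≤ C * ‖y‖ ^ (2 - ε)) :=
  G.toPic.two_jets G.exists_busD one_pos (H469.t2dG G 1) hS hε hε1

end Vale.Agent.P207.N4
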