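import Vale.Agent.P207.N4.Dim
import Vale.Agent.P207.N4.H229.PdQ
import Vale.Agent.P207.N4.H469.T2Main
import Vale.Agent.P207.N4.H547.LqN0
import Vale.Agent.P207.N4.H281.EndGlue

/-!
# P207, line N4, step 7: `P.Prod` for the geometry, no hypotheses
-/

set_option linter.unusedSectionVars false
set_option maxSynthPendingDepth 3

open Set Filter Topology Metric MeasureTheory
open scoped ContDiff

noncomputable section

namespace Vale.Agent.P207.N4

open Vale.Agent.P207.N3

variable [Dim]

variable {Γ X B : Type} [Group Γ] [MetricSpace X] [ProperSpace X] [MulAction Γ X]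
  [IsIsometricSMul Γ X] [TopologicalSpace B] [CompactSpace B] [T2Space B] [MulAction Γ B]
  [ContinuousConstSMul Γ B] {L : Leaf Γ X B} [MeasurableSpace B] [BorelSpace B] {V : Type}
  [NormedAddCommGroup V] [NormedSpace ℝ V] [FiniteDimensional ℝ V]

/-- the data of the product formula exist in the rough alternative -/
theorem PicG.hasPD (G : PicG L V) (hS : G.toPic.Rough) : G.toPic.HasPD := by
  obtain ⟨CQ, hQ⟩ := G.toPic.lq_N0 hS
  exact G.toPic.pd_q G.exists_busD one_pos (H469.t2dG G 1) ⟨CQ, fun x => (hQ x).2⟩

/-- **step 7** -/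
theorem PicG.prod (G : PicG L V) : G.toPic.Prod := G.toPic.prod_of G.hasPD

end Vale.Agent.P207.N4
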