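import Vale.Agent.P207.N4.Dim
import Vale.Agent.P207.N4.H265.BusL
import Vale.Agent.P207.N4.H862.BusSg
import Vale.Agent.P207.N4.H229.Dens

/-!
# P207, package PF3 over `Bus`: the product of the two densities at a crossing

`Rd A b be en x y q` is the logarithm of the density, on the disc of `x` at the point `q`, of the
Margulis area of the leaf of `em y` (read in the chart `e y`). `star_geo`: at a crossing of the
geodesic `(ξ, η)` with the disc of `x`, `log det D²(b_ξ + b_η) = Rd_ξ + Rd_η`. No closed orbits.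
-/

open Set Filter Topology Metric MeasureTheory
open scoped ContDiff

set_option linter.unusedSectionVars false

noncomputable section

namespace Vale.Agent.P207.N4.H229

open Vale.Agent.P207.N3
open Vale.Agent.P207.H229 (det_comp' det_smul' contDiff_det' det_ne_zero_iff' det_form')

variable [Dim]

open Vale.Agent.P207.N4.H722
open Vale.Agent.P207.N4.H76 (pk tl e0 sg)
open Vale.Agent.P207.N4.Ten (Sf Sf_pos tau_eq dm_zero' tau_diff)
open Vale.Agent.P207.N4.H265 (bb be en Pz Pz_apply hess_be hasFDerivAt_sgm exists_fr')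

variable {Γ X B : Type} [Group Γ] [MetricSpace X] [ProperSpace X] [MulAction Γ X]
  [IsIsometricSMul Γ X] [TopologicalSpace B] [CompactSpace B] [T2Space B] [MulAction Γ B]
  [ContinuousConstSMul Γ B] {L : Leaf Γ X B} [MeasurableSpace B] [BorelSpace B]

variable {V : Type} [NormedAddCommGroup V] [NormedSpace ℝ V] [FiniteDimensional ℝ V]
  (I : GeoIn L V) (A : Area L)

theorem EE_flip_symm (z : X) (v : V) :
    (I.EE (L.flip z)).symm v = sg ((I.EE z).symm v) := by
  apply (I.EE (L.flip z)).injective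
  rw [(I.EE (L.flip z)).apply_symm_apply, GeoIn.EE_apply, I.E_flip]
  have h1 : sg (sg ((I.EE z).symm v)) = (I.EE z).symm v := by
    have := congrArg (fun f : O3 => f ((I.EE z).symm v)) H76.sg_mul_sg
    exact this
  rw [h1, ← GeoIn.EE_apply, (I.EE z).apply_symm_apply]

/-- the two frames over a point of a geodesic see the disc in the same way -/
theorem Pz_flip (x : X) (q : E2) (z : X) : Pz I x q (L.flip z) = Pz I x q z := by
  ext1 a
  rw [Pz_apply, Pz_apply, EE_flip_symm]
  rw [H76.sg_apply, H76.tl_pk]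

/-- the density, in a frame over the point of the disc -/
theorem Rd_frame {x y z : X} {q : E2} (hy : ((x, y), q) ∈ sgD L (en I))
    (hz : I.S.ft z = I.D x q) (hem : L.em z = L.em y)
    (hi : (fderiv ℝ (sgm L (en I) x y) q).det ≠ 0) :
    (I.r₀⁻¹ • Pz I x q z).det ≠ 0 ∧
    Rd A (bb I) (be I) (en I) x y q
      = Real.log |(I.r₀⁻¹ • Pz I x q z).det| + Real.log (A.s z 0) := by
  obtain ⟨hq, v, hv, he⟩ := hy
  simp only at hq hv he
  have hep : L.ep z = en I x (L.em y) q := by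
    rw [← hem, ← I.line_eq z, hz]
    rfl
  have he' : L.e y v = L.ep z := by rw [he, hep]
  have h1 := hasFDerivAt_sgm I hq hz hem hv he'
  have h2 : sgm L (en I) x y q = v :=
    H862.sgm_eq I x y (ball_subset_closedBall hv) he
  have h3 : L.τ z y 0 = v := by
    refine tau_eq (ball_subset_closedBall hv) ?_
    rw [L.e_zero, he']
  have h0 : (0 : E2) ∈ L.dm z y := dm_zero' hv he'
  have h4 := A.s_trans z y hem 0 h0
  rw [h3] at h4
  rw [h1.fderiv] at hi
  have hdet : ((fderiv ℝ (L.τ z y) 0).comp (I.r₀⁻¹ • Pz I x q z)).det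
      = (fderiv ℝ (L.τ z y) 0).det * (I.r₀⁻¹ • Pz I x q z).det := det_comp' _ _
  rw [hdet] at hi
  have hi1 : (fderiv ℝ (L.τ z y) 0).det ≠ 0 := left_ne_zero_of_mul hi
  have hi2 : (I.r₀⁻¹ • Pz I x q z).det ≠ 0 := right_ne_zero_of_mul hi
  refine ⟨hi2, ?_⟩
  have h5 : bb I (L.em y) x + be I x (L.em y) q = L.lv z := by
    rw [← I.b_lv z, hem, hz, bb, be]
    change _ + (I.b (L.em y) (I.D x q) - _) = _
    ring
  have h6 : Real.log (A.s z 0) = A.h * (L.lv z - L.lv y) + Real.log |(fderiv ℝ (L.τ z y) 0).det|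
      + Real.log (A.s y v) := by
    have hs := A.s_pos y v hv
    rw [h4, Real.log_mul (by positivity) hs.ne', Real.log_mul (by positivity) (by positivity),
      Real.log_exp]
  rw [Rd, h1.fderiv, hdet, h2, h5, abs_mul, Real.log_mul (abs_ne_zero.2 hi1) (abs_ne_zero.2 hi2),
    h6]
  ring

/-- **the product of the densities at a crossing** -/
theorem star_geo {Mt : Metr L} (H : HessIn I Mt)
    (norm : ∀ x, A.s x 0 * A.s (L.flip x) 0
      = (I.r₀ ^ Module.finrank ℝ E2) ^ 2 * (Mt.U x + Mt.U (L.flip x)).det)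
    {x y y' : X} {q : E2} (hy : ((x, y), q) ∈ sgD L (en I)) (hy' : ((x, y'), q) ∈ sgD L (en I))
    (he : L.em y' = en I x (L.em y) q)
    (hi : (fderiv ℝ (sgm L (en I) x y) q).det ≠ 0)
    (hi' : (fderiv ℝ (sgm L (en I) x y') q).det ≠ 0) :
    0 < (hess (be I x (L.em y)) q + hess (be I x (en I x (L.em y) q)) q).det ∧
    Real.log (hess (be I x (L.em y)) q + hess (be I x (en I x (L.em y) q)) q).det
      = Rd A (bb I) (be I) (en I) x y q + Rd A (bb I) (be I) (en I) x y' q := by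
  obtain ⟨z, hz1, hz2, hz3⟩ := exists_fr' I x (L.em y) q
  obtain ⟨d1, r1⟩ := Rd_frame I A hy hz2 hz1 hi
  obtain ⟨d2, r2⟩ := Rd_frame I A (z := L.flip z) hy' (by rw [I.ft_flip, hz2])
    (by rw [GeoIn.em_flip, hz3, he]) hi'
  rw [Pz_flip] at d2 r2
  have hS : (hess (be I x (L.em z)) q + hess (be I x (L.ep z)) q).det
      = (Sf Mt z).det * (Pz I x q z).det ^ 2 :=
    det_form' fun a b => hess_be I H hy.1 hz2 a b
  have hP : (I.r₀⁻¹ • Pz I x q z).det = (I.r₀⁻¹) ^ Module.finrank ℝ E2 * (Pz I x q z).det :=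
    det_smul' _ _
  have hr : (I.r₀⁻¹) ^ Module.finrank ℝ E2 * I.r₀ ^ Module.finrank ℝ E2 = 1 := by
    rw [← mul_pow, inv_mul_cancel₀ I.r₀_pos.ne', one_pow]
  have hS' : (hess (be I x (L.em z)) q + hess (be I x (L.ep z)) q).det
      = A.s z 0 * A.s (L.flip z) 0 * (I.r₀⁻¹ • Pz I x q z).det ^ 2 := by
    rw [hS, norm z, hP]
    change _ = (I.r₀ ^ Module.finrank ℝ E2) ^ 2 * (Sf Mt z).det * _
    have e1 : (I.r₀ ^ Module.finrank ℝ E2) ^ 2 * (Sf Mt z).det
        * ((I.r₀⁻¹) ^ Module.finrank ℝ E2 * (Pz I x q z).det) ^ 2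
        = ((I.r₀⁻¹) ^ Module.finrank ℝ E2 * I.r₀ ^ Module.finrank ℝ E2) ^ 2
          * ((Sf Mt z).det * (Pz I x q z).det ^ 2) := by ring
    rw [e1, hr]
    ring
  rw [hz3, hz1] at hS'
  have hs1 := A.s_pos z 0 (mem_ball_self (by norm_num))
  have hs2 := A.s_pos (L.flip z) 0 (mem_ball_self (by norm_num))
  have hT2 : 0 < (I.r₀⁻¹ • Pz I x q z).det ^ 2 := by positivity
  refine ⟨by rw [hS']; positivity, ?_⟩
  rw [hS', Real.log_mul (mul_pos hs1 hs2).ne' hT2.ne', Real.log_mul hs1.ne' hs2.ne',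
    Real.log_pow, r1, r2, Real.log_abs]
  push_cast
  ring

end Vale.Agent.P207.N4.H229
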